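import Mathlib

namespace Vale.Agent.Results.P317.NearPavingIntersection

open Set

variable {α : Type*}

/-- exchange of a prescribed outside element into a base, avoiding the removal of elements of a
given independent set. -/
theorem exchange_in (M : Matroid α) {B₀ I : Set α} (hB₀ : M.IsBase B₀) (hI : M.Indep I)
    {y : α} (hyI : y ∈ I) (hy : y ∉ B₀) (hsub : I ⊆ insert y B₀) :
    ∃ x ∈ B₀, x ∉ I ∧ M.IsBase (insert y (B₀ \ {x})) := by
  obtain ⟨B', hB', hIB', hB'sub⟩ := hI.exists_isBase_subset_union_isBase hB₀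
  have hyB' : y ∈ B' := hIB' hyI
  have hB'sub' : B' ⊆ insert y B₀ := by
    intro z hz
    rcases hB'sub hz with h | h
    · exact hsub h
    · exact Or.inr h
  have h1 : B' \ B₀ = {y} := by
    ext z
    constructor
    · rintro ⟨hz, hzB⟩
      rcases hB'sub' hz with h | h
      · exact h
      · exact absurd h hzB
    · rintro rfl
      exact ⟨hyB', hy⟩
  have h2 := hB'.encard_sdiff_comm hB₀
  rw [h1, encard_singleton] at h2
  obtain ⟨x, hx⟩ := encard_eq_one.1 h2.symm
  have hxB : x ∈ B₀ := (hx.symm.subset rfl).1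
  have hxB' : x ∉ B' := (hx.symm.subset rfl).2
  refine ⟨x, hxB, fun h => hxB' (hIB' h), ?_⟩
  have : insert y (B₀ \ {x}) = B' := by
    ext z
    constructor
    · rintro (rfl | ⟨hz, hzx⟩)
      · exact hyB'
      · by_contra hzB'
        have : z ∈ B₀ \ B' := ⟨hz, hzB'⟩
        rw [hx] at this
        exact hzx this
    · intro hz
      rcases hB'sub' hz with h | h
      · exact Or.inl h
      · refine Or.inr ⟨h, ?_⟩
        rintro rfl
        exact hxB' hz
  rw [this]
  exact hB'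

/-- a simultaneous exchange of two elements. -/
theorem two_exchange (M : Matroid α) {B₀ : Set α} (hB₀ : M.IsBase B₀) {x x' y y' : α}
    (hx : x ∈ B₀) (hx' : x' ∈ B₀) (hxx' : x ≠ x') (hy : y ∉ B₀) (hy' : y' ∉ B₀) (hyy' : y ≠ y')
    (h1 : M.Indep (insert y (B₀ \ {x'})))
    (h2 : M.Indep (insert y' (B₀ \ {x})))
    (h3 : ¬ M.Indep (insert y' (B₀ \ {x'}))) :
    M.IsBase (insert y (insert y' (B₀ \ {x, x'}))) := by
  set J : Set α := B₀ \ {x, x'} with hJ
  have hxJ : x ∉ J := fun h => h.2 (Or.inl rfl)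
  have hx'J : x' ∉ J := fun h => h.2 (Or.inr rfl)
  have hyJ : y ∉ J := fun h => hy h.1
  have hy'J : y' ∉ J := fun h => hy' h.1
  have e1 : B₀ \ {x'} = insert x J := by
    ext z
    simp only [hJ, mem_sdiff, mem_singleton_iff, mem_insert_iff]
    constructor
    · rintro ⟨hz, hzx'⟩
      by_cases hzx : z = x
      · exact Or.inl hzx
      · exact Or.inr ⟨hz, fun h => h.elim hzx hzx'⟩
    · rintro (rfl | ⟨hz, hzn⟩)
      · exact ⟨hx, hxx'⟩
      · exact ⟨hz, fun h => hzn (Or.inr h)⟩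
  have e2 : B₀ \ {x} = insert x' J := by
    ext z
    simp only [hJ, mem_sdiff, mem_singleton_iff, mem_insert_iff]
    constructor
    · rintro ⟨hz, hzx⟩
      by_cases hzx' : z = x'
      · exact Or.inl hzx'
      · exact Or.inr ⟨hz, fun h => h.elim hzx hzx'⟩
    · rintro (rfl | ⟨hz, hzn⟩)
      · exact ⟨hx', fun h => hxx' h.symm⟩
      · exact ⟨hz, fun h => hzn (Or.inl h)⟩
  rw [e1] at h1 h3
  rw [e2] at h2
  have hyE : y ∈ M.E := h1.subset_ground (Or.inl rfl)
  have hy'E : y' ∈ M.E := h2.subset_ground (Or.inl rfl)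
  have hJx : M.Indep (insert x J) := by rw [← e1]; exact hB₀.indep.subset sdiff_subset
  have hJx' : M.Indep (insert x' J) := by rw [← e2]; exact hB₀.indep.subset sdiff_subset
  have hJ_ind : M.Indep J := hJx.subset (subset_insert _ _)
  have hJy' : M.Indep (insert y' J) :=
    h2.subset (insert_subset_insert (subset_insert _ _))
  -- y' lies in the closure of insert x J
  have c1 : y' ∈ M.closure (insert x J) := by
    by_contra hcon
    exact h3 ((hJx.notMem_closure_iff hy'E).1 hcon).1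
  -- y' is not in the closure of J
  have c2 : y' ∉ M.closure J := by
    intro hcon
    have hmem : y' ∈ M.closure (insert x' J) :=
      M.closure_subset_closure (subset_insert _ _) hcon
    have hnot : y' ∉ M.closure (insert x' J) := by
      rw [hJx'.notMem_closure_iff hy'E]
      refine ⟨h2, ?_⟩
      rintro (h | h)
      · exact hy' (h ▸ hx')
      · exact hy'J h
    exact hnot hmem
  have c3 : x ∈ M.closure (insert y' J) := (Matroid.closure_exchange ⟨c1, c2⟩).1
  have hbase1 : M.IsBase (insert y (insert x J)) := by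
    rw [← e1]
    exact hB₀.exchange_isBase_of_indep hy (by rw [e1]; exact h1)
  have hbase2 : M.IsBase (insert y' (insert x' J)) := by
    rw [← e2]
    exact hB₀.exchange_isBase_of_indep hy' (by rw [e2]; exact h2)
  have hind : M.Indep (insert y (insert y' J)) := by
    by_contra hcon
    have c4 : y ∈ M.closure (insert y' J) := by
      by_contra hc
      exact hcon ((hJy'.notMem_closure_iff hyE).1 hc).1
    have hsubE : insert y' J ⊆ M.E := hJy'.subset_ground
    have hsub : insert y (insert x J) ⊆ M.closure (insert y' J) := by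
      intro z hz
      rcases hz with rfl | rfl | hz
      · exact c4
      · exact c3
      · exact M.subset_closure (insert y' J) hsubE (Or.inr hz)
    have hcl : M.closure (insert y' J) = M.E := by
      have := hbase1.closure_of_superset hsub
      rwa [Matroid.closure_closure] at this
    have hb : M.IsBase (insert y' J) := hJy'.isBase_of_ground_subset_closure hcl.symm.subset
    have heq := hb.eq_of_subset_isBase hbase2 (insert_subset_insert (subset_insert _ _))
    have : x' ∈ insert y' J := by rw [heq]; exact Or.inr (Or.inl rfl)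
    rcases this with h | h
    · exact hy' (h ▸ hx')
    · exact hx'J h
  -- turn independence into being a base
  have e3 : insert y' J = insert y' (insert x' J) \ {x'} := by
    ext z
    simp only [mem_insert_iff, mem_sdiff, mem_singleton_iff]
    constructor
    · rintro (rfl | hz)
      · exact ⟨Or.inl rfl, fun h => hy' (h ▸ hx')⟩
      · exact ⟨Or.inr (Or.inr hz), fun h => hx'J (h ▸ hz)⟩
    · rintro ⟨(h | h | h), hne⟩
      · exact Or.inl h
      · exact absurd h hne
      · exact Or.inr h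
  have hyB1 : y ∉ insert y' (insert x' J) := by
    rintro (h | h | h)
    · exact hyy' h
    · exact hy (h ▸ hx')
    · exact hyJ h
  rw [e3]
  exact hbase2.exchange_isBase_of_indep hyB1 (by rw [← e3]; exact hind)

theorem ncard_of_isBase [Finite α] (M : Matroid α) (r : ℕ) (hr : M.eRank = r) {B : Set α}
    (hB : M.IsBase B) : B.ncard = r := by
  rw [ncard_def, hB.encard_eq_eRank, hr]
  rfl

/-- if all sets of at most `r - k` elements are independent, then at most `k` elements of a base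
cannot be exchanged for a given outside element. -/
theorem bad_card [Finite α] (M : Matroid α) (r k : ℕ) (hr : M.eRank = r)
    (hk : ∀ X : Set α, X.ncard + k ≤ r → M.Indep X)
    {B₀ : Set α} (hB₀ : M.IsBase B₀) {y : α} (hy : y ∉ B₀) (Q : Set α) (hQ : Q ⊆ B₀)
    (hbad : ∀ x ∈ Q, ¬ M.Indep (insert y (B₀ \ {x}))) : Q.ncard ≤ k := by
  have hB₀c : B₀.ncard = r := ncard_of_isBase M r hr hB₀
  have hnot : ¬ M.Indep (insert y (B₀ \ Q)) := by
    intro hI
    obtain ⟨x, hxB, hxI, hb⟩ :=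
      exchange_in M hB₀ hI (Or.inl rfl) hy (insert_subset_insert sdiff_subset)
    have hxQ : x ∈ Q := by
      by_contra hxQ
      exact hxI (Or.inr ⟨hxB, hxQ⟩)
    exact hbad x hxQ hb.indep
  have hcard : ¬ ((insert y (B₀ \ Q)).ncard + k ≤ r) := fun h => hnot (hk _ h)
  have hyn : y ∉ B₀ \ Q := fun h => hy h.1
  rw [ncard_insert_of_notMem hyn (Set.toFinite _), ncard_sdiff hQ (Set.toFinite _), hB₀c] at hcard
  have hQle : Q.ncard ≤ r := by
    rw [← hB₀c]; exact ncard_le_ncard hQ (Set.toFinite _)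
  omega

/-- a counting lemma: if every element has at most `m` conflicts and there are at least
`2 m + 2` elements, two of them are mutually conflict-free. -/
theorem exists_nonconflict {ι : Type*} [DecidableEq ι] (X : Finset ι) (m : ℕ) (C : ι → Finset ι)
    (hC : ∀ x ∈ X, (C x).card ≤ m) (hX : 2 * m + 2 ≤ X.card) :
    ∃ x ∈ X, ∃ x' ∈ X, x ≠ x' ∧ x' ∉ C x ∧ x ∉ C x' := by
  by_contra hcon
  have hcon' : ∀ x ∈ X, ∀ x' ∈ X, x ≠ x' → x' ∉ C x → x ∈ C x' := by
    intro x hx x' hx' hne h1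
    by_contra h2
    exact hcon ⟨x, hx, x', hx', hne, h1, h2⟩
  let A : Finset (ι × ι) := X.biUnion (fun x => (C x).image (fun x' => (x, x')))
  let A2 : Finset (ι × ι) := X.biUnion (fun x => (C x).image (fun x' => (x', x)))
  have hsub : X.offDiag ⊆ A ∪ A2 := by
    intro p hp
    rw [Finset.mem_offDiag] at hp
    obtain ⟨h1, h2, hne⟩ := hp
    by_cases h : p.2 ∈ C p.1
    · apply Finset.mem_union_left
      simp only [A, Finset.mem_biUnion, Finset.mem_image]
      exact ⟨p.1, h1, p.2, h, rfl⟩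
    · apply Finset.mem_union_right
      have h3 := hcon' p.1 h1 p.2 h2 hne h
      simp only [A2, Finset.mem_biUnion, Finset.mem_image]
      exact ⟨p.2, h2, p.1, h3, rfl⟩
  have hA : A.card ≤ X.card * m :=
    Finset.card_biUnion_le_card_mul _ _ _ (fun x hx => Finset.card_image_le.trans (hC x hx))
  have hA2 : A2.card ≤ X.card * m :=
    Finset.card_biUnion_le_card_mul _ _ _ (fun x hx => Finset.card_image_le.trans (hC x hx))
  have hoff : X.offDiag.card = X.card * X.card - X.card := Finset.offDiag_card X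
  have hle : X.card * X.card - X.card ≤ X.card * m + X.card * m := by
    rw [← hoff]
    exact (Finset.card_le_card hsub).trans
      ((Finset.card_union_le _ _).trans (Nat.add_le_add hA hA2))
  have hmul : X.card * (2 * m + 2) ≤ X.card * X.card := Nat.mul_le_mul_left _ hX
  have hexp : X.card * (2 * m + 2) = 2 * (X.card * m) + 2 * X.card := by ring
  generalize X.card * X.card = a at *
  generalize X.card * m = b at *
  omega

/-- if the base `B` of `M₂` is far from the common base `B₀`, there is a closer common base. -/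
theorem step [Finite α] (M₁ M₂ : Matroid α) (r k : ℕ) (hr₁ : M₁.eRank = r)
    (hk1 : 1 ≤ k) (hk : ∀ X : Set α, X.ncard + k ≤ r → M₁.Indep X)
    {B₀ B : Set α} (h₁ : M₁.IsBase B₀) (h₂ : M₂.IsBase B₀) (hB : M₂.IsBase B)
    (ht : 2 * k ≤ (B \ B₀).ncard) :
    ∃ B₀', M₁.IsBase B₀' ∧ M₂.IsBase B₀' ∧ (B \ B₀').ncard < (B \ B₀).ncard := by
  classical
  by_cases hc1 : ∃ x ∈ B₀ \ B, ∃ y ∈ B \ B₀,
      M₁.Indep (insert y (B₀ \ {x})) ∧ M₂.Indep (insert y (B₀ \ {x}))
  · obtain ⟨x, hx, y, hy, hi1, hi2⟩ := hc1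
    refine ⟨insert y (B₀ \ {x}), h₁.exchange_isBase_of_indep hy.2 hi1,
      h₂.exchange_isBase_of_indep hy.2 hi2, ?_⟩
    apply ncard_lt_ncard _ (Set.toFinite _)
    refine ⟨?_, ?_⟩
    · intro z hz
      refine ⟨hz.1, fun hzB₀ => hz.2 (Or.inr ⟨hzB₀, ?_⟩)⟩
      rintro rfl
      exact hx.2 hz.1
    · intro hsup
      exact (hsup hy).2 (Or.inl rfl)
  · have hc1' : ∀ x ∈ B₀ \ B, ∀ y ∈ B \ B₀,
        M₁.Indep (insert y (B₀ \ {x})) → ¬ M₂.Indep (insert y (B₀ \ {x})) := by
      intro x hx y hy hi1 hi2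
      exact hc1 ⟨x, hx, y, hy, hi1, hi2⟩
    have hν : ∀ x ∈ B₀ \ B, ∃ y, y ∈ B \ B₀ ∧ M₂.IsBase (insert y (B₀ \ {x})) := by
      intro x hx
      obtain ⟨y, hy, hb⟩ := h₂.exchange hB hx
      exact ⟨y, hy, hb⟩
    choose! ν hν using hν
    let Xf : Finset α := (Set.toFinite (B₀ \ B)).toFinset
    let C : α → Finset α := fun x =>
      (Set.toFinite {x' | x' ∈ B₀ \ B ∧ x' ≠ x ∧ ¬ M₁.Indep (insert (ν x) (B₀ \ {x'}))}).toFinset
    have hbadself : ∀ x ∈ B₀ \ B, ¬ M₁.Indep (insert (ν x) (B₀ \ {x})) := by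
      intro x hx h
      exact hc1' x hx (ν x) (hν x hx).1 h (hν x hx).2.indep
    have hC : ∀ x ∈ Xf, (C x).card ≤ k - 1 := by
      intro x hx
      have hxX : x ∈ B₀ \ B := (Set.Finite.mem_toFinset _).1 hx
      have hνx := (hν x hxX).1
      let Q : Set α := {x' | x' ∈ B₀ \ B ∧ ¬ M₁.Indep (insert (ν x) (B₀ \ {x'}))}
      have hQ : Q.ncard ≤ k :=
        bad_card M₁ r k hr₁ hk h₁ hνx.2 Q (fun z hz => hz.1.1) (fun z hz => hz.2)
      have hxQ : x ∈ Q := ⟨hxX, hbadself x hxX⟩
      have hset : {x' | x' ∈ B₀ \ B ∧ x' ≠ x ∧ ¬ M₁.Indep (insert (ν x) (B₀ \ {x'}))} = Q \ {x} := by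
        ext z
        constructor
        · rintro ⟨h1, h2, h3⟩
          exact ⟨⟨h1, h3⟩, h2⟩
        · rintro ⟨⟨h1, h3⟩, h2⟩
          exact ⟨h1, h2, h3⟩
      have hcard : (C x).card = (Q \ {x}).ncard := by
        rw [← hset]
        exact (ncard_eq_toFinset_card _ _).symm
      rw [hcard, ncard_sdiff_singleton_of_mem hxQ]
      omega
    have hXcard : Xf.card = (B \ B₀).ncard := by
      rw [← h₂.ncard_sdiff_comm hB]
      exact (ncard_eq_toFinset_card _ _).symm
    obtain ⟨x, hx, x', hx', hne, hn1, hn2⟩ := exists_nonconflict Xf (k - 1) C hC (by omega)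
    have hxX : x ∈ B₀ \ B := (Set.Finite.mem_toFinset _).1 hx
    have hx'X : x' ∈ B₀ \ B := (Set.Finite.mem_toFinset _).1 hx'
    have hy := (hν x hxX).1
    have hy' := (hν x' hx'X).1
    have hyb := (hν x hxX).2
    have hy'b := (hν x' hx'X).2
    have e1 : M₁.Indep (insert (ν x) (B₀ \ {x'})) := by
      by_contra h
      exact hn1 ((Set.Finite.mem_toFinset _).2 ⟨hx'X, fun h' => hne h'.symm, h⟩)
    have e2 : M₁.Indep (insert (ν x') (B₀ \ {x})) := by
      by_contra h
      exact hn2 ((Set.Finite.mem_toFinset _).2 ⟨hxX, hne, h⟩)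
    have hyy' : ν x ≠ ν x' := by
      intro h
      apply hbadself x' hx'X
      rw [← h]
      exact e1
    have hb1 : M₁.IsBase (insert (ν x) (insert (ν x') (B₀ \ {x, x'}))) :=
      two_exchange M₁ h₁ hxX.1 hx'X.1 hne hy.2 hy'.2 hyy' e1 e2 (hbadself x' hx'X)
    have hb2 : M₂.IsBase (insert (ν x) (insert (ν x') (B₀ \ {x', x}))) :=
      two_exchange M₂ h₂ hx'X.1 hxX.1 (fun h => hne h.symm) hy.2 hy'.2 hyy' hyb.indep hy'b.indep
        (hc1' x hxX (ν x') hy' e2)
    rw [Set.pair_comm x' x] at hb2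
    refine ⟨_, hb1, hb2, ?_⟩
    apply ncard_lt_ncard _ (Set.toFinite _)
    refine ⟨?_, ?_⟩
    · intro z hz
      refine ⟨hz.1, fun hzB₀ => hz.2 (Or.inr (Or.inr ⟨hzB₀, ?_⟩))⟩
      rintro (rfl | rfl)
      · exact hxX.2 hz.1
      · exact hx'X.2 hz.1
    · intro hsup
      exact (hsup hy).2 (Or.inl rfl)

/-- every base of `M₂` is close to a common base. -/
theorem close_base [Finite α] (M₁ M₂ : Matroid α) (r k : ℕ) (hr₁ : M₁.eRank = r)
    (hk1 : 1 ≤ k) (hk : ∀ X : Set α, X.ncard + k ≤ r → M₁.Indep X)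
    {B : Set α} (hB : M₂.IsBase B) :
    ∀ (t : ℕ) (B₀ : Set α), M₁.IsBase B₀ → M₂.IsBase B₀ → (B \ B₀).ncard = t →
      ∃ B₀', M₁.IsBase B₀' ∧ M₂.IsBase B₀' ∧ (B \ B₀').ncard < 2 * k := by
  intro t
  induction t using Nat.strong_induction_on with
  | _ t ih =>
    intro B₀ h₁ h₂ ht
    by_cases hlt : (B \ B₀).ncard < 2 * k
    · exact ⟨B₀, h₁, h₂, hlt⟩
    · obtain ⟨B₁, hb1, hb2, hlt'⟩ := step M₁ M₂ r k hr₁ hk1 hk h₁ h₂ hB (by omega)
      exact ih _ (by omega) B₁ hb1 hb2 rfl

theorem ncard_biUnion_le {β γ : Type*} [Finite β] [Finite γ] (S : Set β) (T : β → Set γ) (c : ℕ)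
    (hT : ∀ b ∈ S, (T b).ncard ≤ c) : (⋃ b ∈ S, T b).ncard ≤ S.ncard * c := by
  classical
  let Sf : Finset β := (Set.toFinite S).toFinset
  let Tf : β → Finset γ := fun b => (Set.toFinite (T b)).toFinset
  have h1 : (⋃ b ∈ S, T b) = ((Sf.biUnion Tf : Finset γ) : Set γ) := by
    ext z
    simp [Sf, Tf]
  rw [h1, ncard_coe_finset]
  have h2 : ∀ b ∈ Sf, (Tf b).card ≤ c := by
    intro b hb
    have : (Tf b).card = (T b).ncard := (ncard_eq_toFinset_card (T b) _).symm
    rw [this]
    exact hT b ((Set.Finite.mem_toFinset _).1 hb)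
  have h3 : Sf.card = S.ncard := (ncard_eq_toFinset_card S _).symm
  rw [← h3]
  exact Finset.card_biUnion_le_card_mul Sf Tf c h2

/-- the sets obtained from `B'` by removing one element and inserting one outside element. -/
def nbrs (B' : Set α) : Set (Set α) :=
  (fun p : α × α => insert p.2 (B' \ {p.1})) '' (B' ×ˢ B'ᶜ)

theorem ncard_nbrs [Fintype α] (B' : Set α) (r : ℕ) (hc : B'.ncard = r) :
    (nbrs B').ncard ≤ r * (Fintype.card α - r) := by
  unfold nbrs
  refine (ncard_image_le (Set.toFinite _)).trans ?_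
  rw [ncard_prod, ncard_compl, hc, Nat.card_eq_fintype_card]

/-- the sets of the same size as `B₀` having at most `d` elements outside `B₀`. -/
def near (B₀ : Set α) (d : ℕ) : Set (Set α) :=
  {B | B.ncard = B₀.ncard ∧ (B \ B₀).ncard ≤ d}

theorem near_succ_subset [Finite α] (B₀ : Set α) (d : ℕ) :
    near B₀ (d + 1) ⊆ near B₀ d ∪ ⋃ B' ∈ near B₀ d, nbrs B' := by
  rintro B ⟨hc, hd⟩
  by_cases h : (B \ B₀).ncard ≤ d
  · exact Or.inl ⟨hc, h⟩
  · right
    have hpos : 0 < (B \ B₀).ncard := by omega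
    obtain ⟨y, hy⟩ := (ncard_pos (Set.toFinite _)).1 hpos
    have hne : (B₀ \ B).Nonempty := by
      by_contra hcon
      rw [Set.not_nonempty_iff_eq_empty, Set.sdiff_eq_empty] at hcon
      have : B₀ = B := eq_of_subset_of_ncard_le hcon hc.le (Set.toFinite _)
      exact hy.2 (this ▸ hy.1)
    obtain ⟨x, hx⟩ := hne
    have hxy : x ≠ y := fun h' => hy.2 (h' ▸ hx.1)
    have hxn : x ∉ B \ {y} := fun h' => hx.2 h'.1
    simp only [mem_iUnion, exists_prop]
    refine ⟨insert x (B \ {y}), ⟨?_, ?_⟩, ?_⟩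
    · rw [← hc]
      exact ncard_exchange hx.2 hy.1
    · have hset : insert x (B \ {y}) \ B₀ = (B \ B₀) \ {y} := by
        ext z
        constructor
        · rintro ⟨(rfl | ⟨hz, hzy⟩), hzB⟩
          · exact absurd hx.1 hzB
          · exact ⟨⟨hz, hzB⟩, hzy⟩
        · rintro ⟨⟨hz, hzB⟩, hzy⟩
          exact ⟨Or.inr ⟨hz, hzy⟩, hzB⟩
      rw [hset, ncard_sdiff_singleton_of_mem hy]
      omega
    · refine ⟨(x, y), ⟨Or.inl rfl, ?_⟩, ?_⟩
      · rintro (h' | h')
        · exact hxy h'.symm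
        · exact h'.2 rfl
      · ext z
        simp only [mem_insert_iff, mem_sdiff, mem_singleton_iff]
        constructor
        · rintro (rfl | ⟨(rfl | ⟨hz, hzy⟩), hzx⟩)
          · exact hy.1
          · exact absurd rfl hzx
          · exact hz
        · intro hz
          by_cases hzy : z = y
          · exact Or.inl hzy
          · refine Or.inr ⟨Or.inr ⟨hz, hzy⟩, ?_⟩
            rintro rfl
            exact hx.2 hz

theorem ncard_near [Fintype α] (B₀ : Set α) (r : ℕ) (hr : B₀.ncard = r) (d : ℕ) :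
    (near B₀ d).ncard ≤ (1 + r * (Fintype.card α - r)) ^ d := by
  induction d with
  | zero =>
    have hsub : near B₀ 0 ⊆ {B₀} := by
      rintro B ⟨hc, hd⟩
      have h0 : (B \ B₀).ncard = 0 := by omega
      rw [ncard_eq_zero (Set.toFinite _), Set.sdiff_eq_empty] at h0
      exact eq_of_subset_of_ncard_le h0 hc.ge (Set.toFinite _)
    calc (near B₀ 0).ncard ≤ ({B₀} : Set (Set α)).ncard := ncard_le_ncard hsub (Set.toFinite _)
      _ = 1 := ncard_singleton _
      _ = (1 + r * (Fintype.card α - r)) ^ 0 := (pow_zero _).symm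
  | succ d ih =>
    have hT : ∀ B' ∈ near B₀ d, (nbrs B').ncard ≤ r * (Fintype.card α - r) := by
      intro B' hB'
      exact ncard_nbrs B' r (hB'.1.trans hr)
    calc (near B₀ (d + 1)).ncard
        ≤ (near B₀ d ∪ ⋃ B' ∈ near B₀ d, nbrs B').ncard :=
          ncard_le_ncard (near_succ_subset B₀ d) (Set.toFinite _)
      _ ≤ (near B₀ d).ncard + (⋃ B' ∈ near B₀ d, nbrs B').ncard := ncard_union_le _ _
      _ ≤ (near B₀ d).ncard + (near B₀ d).ncard * (r * (Fintype.card α - r)) :=
          Nat.add_le_add_left (ncard_biUnion_le _ _ _ hT) _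
      _ = (near B₀ d).ncard * (1 + r * (Fintype.card α - r)) := by ring
      _ ≤ (1 + r * (Fintype.card α - r)) ^ d * (1 + r * (Fintype.card α - r)) :=
          Nat.mul_le_mul_right _ ih
      _ = (1 + r * (Fintype.card α - r)) ^ (d + 1) := (pow_succ _ _).symm

/-- Let `M₁`, `M₂` be matroids of rank `r` on a finite type with `n` elements such that every set
with at most `r - (j + 1)` elements is independent in `M₁` (for `j = 0`: `M₁` is paving). If the
two have a common base, then every base of `M₂` has at most `2 j + 1` elements outside a suitable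
common base, and the number of bases of `M₂` is at most `(1 + r (n - r)) ^ (2 j + 1)` times the
number of common bases. -/
theorem result {α : Type*} [Fintype α] (M₁ M₂ : Matroid α) (r j : ℕ)
    (hr₁ : M₁.eRank = r) (hr₂ : M₂.eRank = r)
    (hsmall : ∀ X : Set α, X.ncard + (j + 1) ≤ r → M₁.Indep X)
    (hN : ∃ B, M₁.IsBase B ∧ M₂.IsBase B) :
    (∀ B : Set α, M₂.IsBase B →
        ∃ B₀ : Set α, M₁.IsBase B₀ ∧ M₂.IsBase B₀ ∧ (B \ B₀).ncard ≤ 2 * j + 1) ∧
      {B : Set α | M₂.IsBase B}.ncard ≤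
        (1 + r * (Fintype.card α - r)) ^ (2 * j + 1) *
          {B : Set α | M₁.IsBase B ∧ M₂.IsBase B}.ncard := by
  obtain ⟨B₀, h₁, h₂⟩ := hN
  have hclose : ∀ B : Set α, M₂.IsBase B →
      ∃ B₁ : Set α, M₁.IsBase B₁ ∧ M₂.IsBase B₁ ∧ (B \ B₁).ncard ≤ 2 * j + 1 := by
    intro B hB
    obtain ⟨B₁, hb1, hb2, hlt⟩ :=
      close_base M₁ M₂ r (j + 1) hr₁ (by omega) hsmall hB _ B₀ h₁ h₂ rfl
    exact ⟨B₁, hb1, hb2, by omega⟩
  refine ⟨hclose, ?_⟩
  set C : Set (Set α) := {B | M₁.IsBase B ∧ M₂.IsBase B} with hC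
  have hsub : {B : Set α | M₂.IsBase B} ⊆ ⋃ B' ∈ C, near B' (2 * j + 1) := by
    intro B hB
    obtain ⟨B₁, hb1, hb2, hle⟩ := hclose B hB
    simp only [mem_iUnion, exists_prop]
    refine ⟨B₁, ⟨hb1, hb2⟩, ?_, hle⟩
    rw [ncard_of_isBase M₂ r hr₂ hB, ncard_of_isBase M₂ r hr₂ hb2]
  calc {B : Set α | M₂.IsBase B}.ncard
      ≤ (⋃ B' ∈ C, near B' (2 * j + 1)).ncard := ncard_le_ncard hsub (Set.toFinite _)
    _ ≤ C.ncard * (1 + r * (Fintype.card α - r)) ^ (2 * j + 1) :=
        ncard_biUnion_le C _ _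
          (fun B' hB' => ncard_near B' r (ncard_of_isBase M₁ r hr₁ hB'.1) _)
    _ = (1 + r * (Fintype.card α - r)) ^ (2 * j + 1) * C.ncard := by ring

end Vale.Agent.Results.P317.NearPavingIntersection
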