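import Mathlib

namespace Vale.Agent.Results.P317.PavingIntersection

open Set

variable {α : Type*}

/-- dual-direction exchange: add a prescribed element of another base. -/
theorem exchange_in (M : Matroid α) {B B₀ : Set α} (hB : M.IsBase B) (hB₀ : M.IsBase B₀)
    {f : α} (hf₀ : f ∈ B₀) (hf : f ∉ B) :
    ∃ e ∈ B, M.IsBase (insert f (B \ {e})) := by
  have hI : M.Indep {f} := hB₀.indep.subset (singleton_subset_iff.2 hf₀)
  obtain ⟨B', hB', hfB', hB'sub⟩ := hI.exists_isBase_subset_union_isBase hB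
  have hfB'' : f ∈ B' := hfB' rfl
  have h1 : B' \ B = {f} := by
    ext x
    constructor
    · rintro ⟨hx, hxB⟩
      rcases hB'sub hx with h | h
      · exact h
      · exact absurd h hxB
    · rintro rfl
      exact ⟨hfB'', hf⟩
  have h2 := hB'.encard_sdiff_comm hB
  rw [h1, encard_singleton] at h2
  obtain ⟨e, he⟩ := encard_eq_one.1 h2.symm
  have heB : e ∈ B := (he.symm.subset rfl).1
  have heB' : e ∉ B' := (he.symm.subset rfl).2
  refine ⟨e, heB, ?_⟩
  have : insert f (B \ {e}) = B' := by
    ext x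
    constructor
    · rintro (rfl | ⟨hx, hxe⟩)
      · exact hfB''
      · by_contra hxB'
        have : x ∈ B \ B' := ⟨hx, hxB'⟩
        rw [he] at this
        exact hxe this
    · intro hx
      rcases hB'sub hx with h | h
      · exact Or.inl h
      · refine Or.inr ⟨h, ?_⟩
        rintro rfl
        exact heB' hx
  rw [this]
  exact hB'

theorem ncard_of_isBase [Finite α] (M : Matroid α) (r : ℕ) (hr : M.eRank = r) {B : Set α}
    (hB : M.IsBase B) : B.ncard = r := by
  rw [ncard_def, hB.encard_eq_eRank, hr]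
  rfl

theorem isBase_of_indep_ncard [Finite α] (M : Matroid α) (r : ℕ) (hr : M.eRank = r) {I : Set α}
    (hI : M.Indep I) (hc : I.ncard = r) : M.IsBase I := by
  apply hI.isBase_of_eRk_ge (Set.toFinite I)
  rw [hI.eRk_eq_encard, hr, ← hc, (Set.toFinite I).cast_ncard_eq]

/-- one exchange step from a base of `M₂` that is not a base of `M₁` to a common base. -/
theorem step [Finite α] (M₁ M₂ : Matroid α) (hE₁ : M₁.E = univ) (r : ℕ)
    (hr₁ : M₁.eRank = r) (hr₂ : M₂.eRank = r)
    (hpav : ∀ X : Set α, X.ncard < r → M₂.Indep X → M₁.Indep X)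
    {B₀ B : Set α} (h₁ : M₁.IsBase B₀) (h₂ : M₂.IsBase B₀) (hB : M₂.IsBase B)
    (hnB : ¬ M₁.IsBase B) :
    ∃ e ∈ B, ∃ f, f ∉ B ∧ M₁.IsBase (insert f (B \ {e})) ∧ M₂.IsBase (insert f (B \ {e})) := by
  have hBc : B.ncard = r := ncard_of_isBase M₂ r hr₂ hB
  have hBE : B ⊆ M₁.E := by rw [hE₁]; exact subset_univ _
  -- some element of the common base lies outside the closure of `B` in `M₁`
  have hex : ∃ f ∈ B₀, f ∉ M₁.closure B := by
    by_contra hcon
    have hsub : B₀ ⊆ M₁.closure B := by
      intro x hx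
      by_contra hx'
      exact hcon ⟨x, hx, hx'⟩
    have hcl : M₁.closure B = M₁.E := by
      have := h₁.closure_of_superset hsub
      rwa [Matroid.closure_closure] at this
    have hsp : M₁.Spanning B := (Matroid.spanning_iff_closure_eq hBE).2 hcl
    obtain ⟨B', hB', hB'B⟩ := hsp.exists_isBase_subset
    have hB'c : B'.ncard = r := ncard_of_isBase M₁ r hr₁ hB'
    have : B' = B := eq_of_subset_of_ncard_le hB'B (by rw [hBc, hB'c]) (Set.toFinite B)
    exact hnB (this ▸ hB')
  obtain ⟨f, hf₀, hfcl⟩ := hex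
  have hfB : f ∉ B := fun h => hfcl (M₁.subset_closure B hBE h)
  obtain ⟨e, heB, hbase₂⟩ := exchange_in M₂ hB h₂ hf₀ hfB
  refine ⟨e, heB, f, hfB, ?_, hbase₂⟩
  have hIc : (B \ {e}).ncard < r := by
    rw [← hBc]
    exact ncard_sdiff_singleton_lt_of_mem heB (Set.toFinite B)
  have hI : M₁.Indep (B \ {e}) := hpav _ hIc (hB.indep.subset sdiff_subset)
  have hfcl' : f ∉ M₁.closure (B \ {e}) :=
    fun h => hfcl (M₁.closure_subset_closure sdiff_subset h)
  have hfE : f ∈ M₁.E := by rw [hE₁]; exact mem_univ _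
  have hind : M₁.Indep (insert f (B \ {e})) := ((hI.notMem_closure_iff hfE).1 hfcl').1
  exact isBase_of_indep_ncard M₁ r hr₁ hind (ncard_of_isBase M₂ r hr₂ hbase₂)

/-- the sets obtained from `B'` by removing one element and inserting one outside element. -/
def nbrs (B' : Set α) : Set (Set α) :=
  (fun p : α × α => insert p.2 (B' \ {p.1})) '' (B' ×ˢ B'ᶜ)

theorem ncard_nbrs [Fintype α] (B' : Set α) (r : ℕ) (hc : B'.ncard = r) :
    (nbrs B').ncard ≤ r * (Fintype.card α - r) := by
  unfold nbrs
  refine (ncard_image_le (Set.toFinite _)).trans ?_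
  rw [ncard_prod, ncard_compl, hc, Nat.card_eq_fintype_card]

/-- Let `M₁`, `M₂` be matroids of rank `r` on a finite ground set of `n` elements such that every
independent set of `M₂` with fewer than `r` elements is independent in `M₁` (for instance `M₁`
paving and `M₂` arbitrary). If the two have a common base, then the number of bases of `M₂` is at
most `(1 + r (n - r))` times the number of common bases. -/
theorem result {α : Type*} [Fintype α] (M₁ M₂ : Matroid α) (hE₁ : M₁.E = Set.univ) (r : ℕ)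
    (hr₁ : M₁.eRank = r) (hr₂ : M₂.eRank = r)
    (hpav : ∀ X : Set α, X.ncard < r → M₂.Indep X → M₁.Indep X)
    (hN : ∃ B, M₁.IsBase B ∧ M₂.IsBase B) :
    {B : Set α | M₂.IsBase B}.ncard ≤
      (1 + r * (Fintype.card α - r)) * {B : Set α | M₁.IsBase B ∧ M₂.IsBase B}.ncard := by
  classical
  obtain ⟨B₀, h₁, h₂⟩ := hN
  set C : Set (Set α) := {B | M₁.IsBase B ∧ M₂.IsBase B} with hC
  let Cf : Finset (Set α) := (Set.toFinite C).toFinset
  let Tf : Set α → Finset (Set α) := fun B' => (Set.toFinite (nbrs B')).toFinset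
  have hsub : {B | M₂.IsBase B} ⊆ C ∪ ((Cf.biUnion Tf : Finset (Set α)) : Set (Set α)) := by
    intro B hB
    by_cases hB1 : M₁.IsBase B
    · exact Or.inl ⟨hB1, hB⟩
    · right
      obtain ⟨e, heB, f, hfB, hb₁, hb₂⟩ := step M₁ M₂ hE₁ r hr₁ hr₂ hpav h₁ h₂ hB hB1
      simp only [Finset.coe_biUnion, Finset.mem_coe, Set.Finite.mem_toFinset, mem_iUnion,
        exists_prop, Cf, Tf]
      refine ⟨insert f (B \ {e}), ⟨hb₁, hb₂⟩, ?_⟩
      unfold nbrs
      refine ⟨(f, e), ⟨Or.inl rfl, ?_⟩, ?_⟩
      · rintro (h | h)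
        · exact hfB (h ▸ heB)
        · exact h.2 rfl
      · have hfe : f ≠ e := fun h => hfB (h ▸ heB)
        ext x
        simp only [mem_insert_iff, mem_sdiff, mem_singleton_iff]
        constructor
        · rintro (rfl | ⟨(rfl | ⟨hx, hxe⟩), hxf⟩)
          · exact heB
          · exact absurd rfl hxf
          · exact hx
        · intro hx
          by_cases hxe : x = e
          · exact Or.inl hxe
          · refine Or.inr ⟨Or.inr ⟨hx, hxe⟩, ?_⟩
            rintro rfl
            exact hfB hx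
  have hT : ∀ B' ∈ Cf, (Tf B').card ≤ r * (Fintype.card α - r) := by
    intro B' hB'
    have hB'C : B' ∈ C := (Set.Finite.mem_toFinset _).1 hB'
    have : (Tf B').card = (nbrs B').ncard := (ncard_eq_toFinset_card (nbrs B') _).symm
    rw [this]
    exact ncard_nbrs B' r (ncard_of_isBase M₁ r hr₁ hB'C.1)
  have hCf : Cf.card = C.ncard := (ncard_eq_toFinset_card C _).symm
  calc {B | M₂.IsBase B}.ncard
      ≤ (C ∪ ((Cf.biUnion Tf : Finset (Set α)) : Set (Set α))).ncard :=
        ncard_le_ncard hsub (Set.toFinite _)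
    _ ≤ C.ncard + ((Cf.biUnion Tf : Finset (Set α)) : Set (Set α)).ncard := ncard_union_le _ _
    _ = C.ncard + (Cf.biUnion Tf).card := by rw [ncard_coe_finset]
    _ ≤ C.ncard + Cf.card * (r * (Fintype.card α - r)) :=
        Nat.add_le_add_left (Finset.card_biUnion_le_card_mul Cf Tf _ hT) _
    _ = (1 + r * (Fintype.card α - r)) * C.ncard := by rw [hCf]; ring

end Vale.Agent.Results.P317.PavingIntersection
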